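import Mathlib
import Vale.Agent.P246.R2.H429.Defs

/-! P246 (helper672): stable range of algebras finite over a noetherian central subring. -/

namespace Vale.Agent.P246.H672

open Submodule

variable {A R : Type} [CommRing A] [Ring R] [Algebra A R]

/-- `R / J` is generated by `k` elements at `p` -/
def G (J : Submodule A R) (p : Ideal A) (k : ℕ) : Prop :=
  ∃ f : A, f ∉ p ∧ ∃ m : Fin k → R, ∀ x : R, f • x ∈ J ⊔ span A (Set.range m)

/-- `x` vanishes in the fibre of `R / J` at `p` -/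
def Z (J : Submodule A R) (x : R) (p : Ideal A) : Prop :=
  ∃ f : A, f ∉ p ∧ f • x ∈ J ⊔ p • (⊤ : Submodule A R)

theorem Z.mono {J J' : Submodule A R} (h : J ≤ J') {x : R} {p : Ideal A} (hz : Z J x p) :
    Z J' x p := by
  obtain ⟨f, hf, h1⟩ := hz
  exact ⟨f, hf, (sup_le_sup_right h _) h1⟩

theorem G.monoJ {J J' : Submodule A R} (h : J ≤ J') {k : ℕ} {p : Ideal A} (hz : G J p k) :
    G J' p k := by
  obtain ⟨f, hf, m, h1⟩ := hz
  exact ⟨f, hf, m, fun x => (sup_le_sup_right h _) (h1 x)⟩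

theorem G.monoP {J : Submodule A R} {k : ℕ} {q p : Ideal A} (h : q ≤ p) (hz : G J p k) :
    G J q k := by
  obtain ⟨f, hf, m, h1⟩ := hz
  exact ⟨f, fun h2 => hf (h h2), m, h1⟩

theorem G.monoK {J : Submodule A R} {k k' : ℕ} {p : Ideal A} (h : k ≤ k') (hz : G J p k) :
    G J p k' := by
  obtain ⟨f, hf, m, h1⟩ := hz
  refine ⟨f, hf, fun i => if h2 : (i : ℕ) < k then m ⟨i, h2⟩ else 0, fun x => ?_⟩
  have h3 : Set.range m ⊆
      Set.range fun i : Fin k' => if h2 : (i : ℕ) < k then m ⟨i, h2⟩ else 0 := by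
    rintro _ ⟨i, rfl⟩
    exact ⟨⟨i, i.2.trans_le h⟩, by simp⟩
  have h4 : J ⊔ span A (Set.range m) ≤
      J ⊔ span A (Set.range fun i : Fin k' => if h2 : (i : ℕ) < k then m ⟨i, h2⟩ else 0) :=
    sup_le_sup_left (span_mono h3) _
  exact h4 (h1 x)

theorem Z_of_G_zero {J : Submodule A R} {p : Ideal A} (hz : G J p 0) (x : R) : Z J x p := by
  obtain ⟨f, hf, m, h1⟩ := hz
  refine ⟨f, hf, ?_⟩
  have h2 := h1 x
  rw [Set.range_eq_empty, span_empty, sup_bot_eq] at h2
  exact (le_sup_left : J ≤ _) h2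

/-- dropping a generator -/
theorem L1 {J : Submodule A R} {p : Ideal A} [hp : p.IsPrime] {y : R} {k : ℕ}
    (hy : ¬ Z J y p) (hG : G J p (k + 1)) : G (J ⊔ span A {y}) p k := by
  obtain ⟨f, hf, m, h1⟩ := hG
  obtain ⟨j, hj, s, hs, hjs⟩ := mem_sup.1 (h1 y)
  obtain ⟨c, hc⟩ := (mem_span_range_iff_exists_fun A).1 hs
  by_cases hall : ∀ i, c i ∈ p
  · exfalso
    refine hy ⟨f, hf, ?_⟩
    rw [← hjs]
    refine add_mem (mem_sup_left hj) (mem_sup_right ?_)
    rw [← hc]
    exact sum_mem fun i _ => smul_mem_smul (hall i) mem_top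
  · push Not at hall
    obtain ⟨i0, hi0⟩ := hall
    refine ⟨c i0 * f, fun h => (hp.mem_or_mem h).elim hi0 hf, fun l => m (i0.succAbove l),
      fun x => ?_⟩
    set T : Submodule A R := (J ⊔ span A {y}) ⊔ span A (Set.range fun l => m (i0.succAbove l))
      with hT
    have hJT : J ≤ T := le_sup_left.trans le_sup_left
    have hyT : y ∈ T := (le_sup_left : J ⊔ span A {y} ≤ T)
      ((le_sup_right : span A {y} ≤ J ⊔ span A {y}) (mem_span_singleton_self y))
    have hmT : ∀ l, m (i0.succAbove l) ∈ T := fun l =>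
      (le_sup_right : _ ≤ T) (subset_span ⟨l, rfl⟩)
    have hm0 : c i0 • m i0 ∈ T := by
      have e1 : c i0 • m i0 = f • y - j - ∑ l, c (i0.succAbove l) • m (i0.succAbove l) := by
        rw [← hjs, ← hc, Fin.sum_univ_succAbove _ i0]
        abel
      rw [e1]
      exact sub_mem (sub_mem (smul_mem _ _ hyT) (hJT hj))
        (sum_mem fun l _ => smul_mem _ _ (hmT l))
    obtain ⟨j', hj', s', hs', hjs'⟩ := mem_sup.1 (h1 x)
    obtain ⟨c', hc'⟩ := (mem_span_range_iff_exists_fun A).1 hs'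
    rw [mul_smul, ← hjs', smul_add]
    refine add_mem (smul_mem _ _ (hJT hj')) ?_
    rw [← hc', Finset.smul_sum, Fin.sum_univ_succAbove _ i0]
    refine add_mem ?_ (sum_mem fun l _ => smul_mem _ _ (smul_mem _ _ (hmT l)))
    rw [smul_comm]
    exact smul_mem _ _ hm0

/-- Nakayama for one element -/
theorem L2 {J : Submodule A R} {q : Ideal A} [hq : q.IsPrime] {a : R} {k : ℕ}
    (ha : Z J a q) (hG : G (J ⊔ span A {a}) q k) : G J q k := by
  obtain ⟨f, hf, h0⟩ := ha
  obtain ⟨g, hg, m, h1⟩ := hG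
  set N : Submodule A R := span A (Set.range m) with hN
  obtain ⟨j, hj, s, hs, hjs⟩ := mem_sup.1 h0
  -- every element of `q • ⊤` times `g` is in `J + N + q a`
  have key : ∀ s ∈ q • (⊤ : Submodule A R), ∃ c ∈ q, g • s - c • a ∈ J ⊔ N := by
    intro s hs
    refine Submodule.smul_induction_on hs ?_ ?_
    · intro r hr x _
      have h2 := h1 x
      rw [sup_assoc, sup_comm (span A {a}), ← sup_assoc] at h2
      obtain ⟨u, hu, v, hv, huv⟩ := mem_sup.1 h2
      obtain ⟨t, rfl⟩ := mem_span_singleton.1 hv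
      refine ⟨r * t, q.mul_mem_right _ hr, ?_⟩
      have e1 : g • r • x - (r * t) • a = r • u := by
        rw [smul_comm, ← huv, smul_add, mul_smul]
        abel
      rw [e1]
      exact smul_mem _ _ hu
    · rintro x y ⟨c, hc, h2⟩ ⟨c', hc', h2'⟩
      refine ⟨c + c', add_mem hc hc', ?_⟩
      have e1 : g • (x + y) - (c + c') • a = (g • x - c • a) + (g • y - c' • a) := by
        rw [smul_add, add_smul]; abel
      rw [e1]
      exact add_mem h2 h2'
  obtain ⟨c, hc, h3⟩ := key s hs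
  have h4 : (g * f - c) • a ∈ J ⊔ N := by
    have e1 : (g * f - c) • a = g • j + (g • s - c • a) := by
      rw [sub_smul, mul_smul, ← hjs, smul_add]; abel
    rw [e1]
    exact add_mem (smul_mem _ _ (mem_sup_left hj)) h3
  have hh : g * f - c ∉ q := fun h => by
    have h5 : g * f ∈ q := by
      have := add_mem h hc
      rwa [sub_add_cancel] at this
    exact (hq.mem_or_mem h5).elim hg hf
  refine ⟨(g * f - c) * g, fun h => (hq.mem_or_mem h).elim hh hg, m, fun x => ?_⟩
  have h2 := h1 x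
  rw [sup_assoc, sup_comm (span A {a}), ← sup_assoc] at h2
  obtain ⟨u, hu, v, hv, huv⟩ := mem_sup.1 h2
  obtain ⟨t, rfl⟩ := mem_span_singleton.1 hv
  rw [mul_smul, ← huv, smul_add]
  refine add_mem (smul_mem _ _ hu) ?_
  rw [smul_comm]
  exact smul_mem _ _ h4

/-- choosing the coefficient -/
theorem chooseT {J : Submodule A R} {y a : R} (S : Finset (Ideal A)) :
    (∀ p ∈ S, p.IsPrime ∧ ¬ Z J a p) → ∃ t : A, ∀ p ∈ S, ¬ Z J (y + t • a) p := by
  classical
  induction hn : S.card generalizing S with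
  | zero =>
    intro _
    rw [Finset.card_eq_zero] at hn
    subst hn
    exact ⟨0, by simp⟩
  | succ n ih =>
    intro hS
    have hne : S.Nonempty := by
      rw [← Finset.card_pos, hn]; omega
    obtain ⟨p, hpS, hmin⟩ := S.exists_minimal hne
    obtain ⟨t, ht⟩ := ih (S.erase p) (by rw [Finset.card_erase_of_mem hpS, hn]; omega)
      (fun q hq => hS q (Finset.mem_of_mem_erase hq))
    by_cases hZ : Z J (y + t • a) p
    · -- an element of all other primes, not in `p`
      have hu : ∃ u : A, u ∉ p ∧ ∀ q ∈ S.erase p, u ∈ q := by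
        have h1 : ∀ q ∈ S.erase p, ∃ u ∈ q, u ∉ p := by
          intro q hq
          by_contra hcon
          push Not at hcon
          have h2 : q ≤ p := hcon
          have h3 := hmin (Finset.mem_of_mem_erase hq) h2
          exact (Finset.ne_of_mem_erase hq) (le_antisymm h2 h3)
        choose! u hu1 hu2 using h1
        refine ⟨∏ q ∈ S.erase p, u q, ?_, fun q hq => ?_⟩
        · intro h
          have hpp := (hS p hpS).1
          obtain ⟨q, hq, h4⟩ := (Ideal.IsPrime.prod_mem_iff (hp := hpp)).1 h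
          exact hu2 q hq h4
        · exact q.mem_of_dvd (Finset.dvd_prod_of_mem u hq) (hu1 q hq)
      obtain ⟨u, hup, hu⟩ := hu
      refine ⟨t + u, fun q hq => ?_⟩
      by_cases hqp : q = p
      · subst hqp
        rintro ⟨f, hf, h1⟩
        obtain ⟨f', hf', h2⟩ := hZ
        have hpp := (hS q hpS).1
        refine (hS q hpS).2 ⟨f * f' * u, fun h => (hpp.mem_or_mem h).elim
          (fun h => (hpp.mem_or_mem h).elim hf hf') hup, ?_⟩
        have e1 : (f * f' * u) • a = f' • f • (y + (t + u) • a) - f • f' • (y + t • a) := by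
          simp only [smul_add, add_smul, smul_smul]
          rw [show f' * (f * u) = f * f' * u by ring, show f' * (f * t) = f * (f' * t) by ring,
            mul_comm f' f]
          abel
        rw [e1]
        exact sub_mem (smul_mem _ _ h1) (smul_mem _ _ h2)
      · rintro ⟨f, hf, h1⟩
        have hqe : q ∈ S.erase p := Finset.mem_erase.2 ⟨hqp, hq⟩
        refine ht q hqe ⟨f, hf, ?_⟩
        have e1 : f • (y + t • a) = f • (y + (t + u) • a) - u • (f • a) := by
          simp only [smul_add, add_smul, smul_smul]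
          rw [mul_comm u f]
          abel
        rw [e1]
        exact sub_mem h1 (mem_sup_right (smul_mem_smul (hu q hqe) mem_top))
    · refine ⟨t, fun q hq => ?_⟩
      by_cases hqp : q = p
      · subst hqp; exact hZ
      · exact ht q (Finset.mem_erase.2 ⟨hqp, hq⟩)

/-- the invariant -/
def Inv (h : Ideal A → ℕ) (m : ℕ) (a : R) (J : Submodule A R) (i : ℕ) : Prop :=
  ∀ p : Ideal A, p.IsPrime → ¬ Z J a p → ∃ k, G J p k ∧ k + i ≤ m * (1 + h p)

theorem crit_finite [IsNoetherianRing A] {h : Ideal A → ℕ} {d m : ℕ} (hm : 1 ≤ m)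
    (hlt : ∀ q p : Ideal A, q.IsPrime → p.IsPrime → q < p → h q < h p)
    (hd : ∀ p : Ideal A, p.IsPrime → h p ≤ d) {a : R} {J : Submodule A R} {i : ℕ}
    (hI : Inv h m a J i) :
    {p : Ideal A | p.IsPrime ∧ ¬ Z J a p ∧
      ¬ ∃ k, G J p k ∧ k + (i + 1) ≤ m * (1 + h p)}.Finite := by
  have hfin : (⋃ k ∈ Finset.range (m * (1 + d) + 1),
      (Ideal.span {f : A | ∃ r : Fin k → R, ∀ x, f • x ∈ J ⊔ span A (Set.range r)}).minimalPrimes
        ).Finite :=
    Set.Finite.biUnion (Finset.finite_toSet _) fun k _ =>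
      Ideal.finite_minimalPrimes_of_isNoetherianRing A _
  refine hfin.subset ?_
  rintro p ⟨hp, hZ, hc⟩
  obtain ⟨k, hk, hki⟩ := hI p hp hZ
  have hki' : m * (1 + h p) < k + (i + 1) := by
    by_contra hcon
    exact hc ⟨k, hk, not_lt.1 hcon⟩
  obtain _ | k := k
  · exact absurd (Z_of_G_zero hk a) hZ
  have hbd : m * (1 + h p) ≤ m * (1 + d) := Nat.mul_le_mul_left _ (by
    have := hd p hp; omega)
  refine Set.mem_biUnion (Finset.mem_coe.2 (Finset.mem_range.2 (show k < _ by omega))) ?_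
  have hsp : ∀ q : Ideal A,
      Ideal.span {f : A | ∃ r : Fin k → R, ∀ x, f • x ∈ J ⊔ span A (Set.range r)} ≤ q ↔
        ¬ G J q k := by
    intro q
    rw [Ideal.span_le]
    constructor
    · rintro h1 ⟨f, hf, r, h2⟩
      exact hf (h1 ⟨r, h2⟩)
    · rintro h1 f ⟨r, h2⟩
      by_contra hf
      exact h1 ⟨f, hf, r, h2⟩
  refine ⟨⟨hp, (hsp p).2 fun h1 => hc ⟨k, h1, by omega⟩⟩, ?_⟩
  rintro q ⟨hq, hqk⟩ hqp
  by_contra hcon
  have hqp' : q < p := lt_of_le_not_ge hqp hcon
  have hGq : ¬ G J q k := (hsp q).1 hqk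
  have hZq : Z J a q := by
    by_contra hZq
    obtain ⟨k', hk', h2⟩ := hI q hq hZq
    have h3 : k + 1 ≤ k' := by
      by_contra hcon
      exact hGq (hk'.monoK (by omega))
    have h4 : m * (1 + h q) ≤ m * h p := Nat.mul_le_mul_left _ (by
      have := hlt q p hq hp hqp'; omega)
    have h5 : m * (1 + h p) = m * h p + m := by ring
    omega
  have := hp
  have := hq
  exact hGq (L2 hZq ((L1 hZ hk).monoP hqp))

/-- right ideals -/
def RI (J : Submodule A R) : Prop := ∀ x ∈ J, ∀ r : R, x * r ∈ J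

/-- `J + y R` -/
def adj (J : Submodule A R) (y : R) : Submodule A R := J ⊔ LinearMap.range (LinearMap.mulLeft A y)

theorem mem_adj {J : Submodule A R} {y x : R} : x ∈ adj J y ↔ ∃ j ∈ J, ∃ r, x = j + y * r := by
  unfold adj
  rw [mem_sup]
  constructor
  · rintro ⟨j, hj, _, ⟨r, rfl⟩, rfl⟩
    exact ⟨j, hj, r, rfl⟩
  · rintro ⟨j, hj, r, rfl⟩
    exact ⟨j, hj, _, ⟨r, rfl⟩, rfl⟩

theorem le_adj (J : Submodule A R) (y : R) : J ⊔ span A {y} ≤ adj J y := by
  refine sup_le le_sup_left ?_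
  rw [span_le, Set.singleton_subset_iff]
  exact mem_adj.2 ⟨0, zero_mem _, 1, by simp⟩

theorem step [IsNoetherianRing A] {h : Ideal A → ℕ} {d m : ℕ} (hm : 1 ≤ m)
    (hlt : ∀ q p : Ideal A, q.IsPrime → p.IsPrime → q < p → h q < h p)
    (hd : ∀ p : Ideal A, p.IsPrime → h p ≤ d) {a : R} {J : Submodule A R} {i : ℕ}
    (hI : Inv h m a J i) (y : R) : ∃ t : A, Inv h m a (adj J (y + t • a)) (i + 1) := by
  classical
  have hfin := crit_finite hm hlt hd hI
  obtain ⟨t, ht⟩ := chooseT (J := J) (y := y) (a := a) hfin.toFinset (fun p hp => by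
    rw [Set.Finite.mem_toFinset] at hp
    exact ⟨hp.1, hp.2.1⟩)
  refine ⟨t, fun p hp hZ => ?_⟩
  have hJ : J ≤ adj J (y + t • a) := le_sup_left
  have hZ' : ¬ Z J a p := fun h1 => hZ (h1.mono hJ)
  by_cases hc : ∃ k, G J p k ∧ k + (i + 1) ≤ m * (1 + h p)
  · obtain ⟨k, hk, hki⟩ := hc
    exact ⟨k, hk.monoJ hJ, hki⟩
  · obtain ⟨k, hk, hki⟩ := hI p hp hZ'
    obtain _ | k := k
    · exact absurd (Z_of_G_zero hk a) hZ'
    refine ⟨k, ?_, by omega⟩
    have := hp
    exact (L1 (ht p (by rw [Set.Finite.mem_toFinset]; exact ⟨hp, hZ', hc⟩)) hk).monoJ (le_adj _ _)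

/-- the ideals after `i` steps -/
theorem steps [IsNoetherianRing A] {h : Ideal A → ℕ} {d m : ℕ} (hm : 1 ≤ m)
    (hlt : ∀ q p : Ideal A, q.IsPrime → p.IsPrime → q < p → h q < h p)
    (hd : ∀ p : Ideal A, p.IsPrime → h p ≤ d) {a : R}
    (h0 : Inv h m a (⊥ : Submodule A R) 0) (y : ℕ → R) (i : ℕ) :
    ∃ (t : ℕ → A) (J : Submodule A R), Inv h m a J i ∧ RI J ∧
      (∀ j < i, y j + t j • a ∈ J) ∧
      ∀ x ∈ J, ∃ v : ℕ → R, x = ∑ j ∈ Finset.range i, (y j + t j • a) * v j := by
  induction i with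
  | zero =>
    refine ⟨fun _ => 0, ⊥, h0, ?_, by simp, ?_⟩
    · intro x hx r
      rw [mem_bot] at hx ⊢
      rw [hx, zero_mul]
    · intro x hx
      rw [mem_bot] at hx
      exact ⟨fun _ => 0, by simp [hx]⟩
  | succ i ih =>
    obtain ⟨t, J, hI, hR, hmem, hrep⟩ := ih
    obtain ⟨s, hs⟩ := step hm hlt hd hI (y i)
    have hti : ∀ j, j < i → Function.update t i s j = t j := fun j hj =>
      Function.update_of_ne hj.ne _ _
    refine ⟨Function.update t i s, adj J (y i + s • a), hs, ?_, ?_, ?_⟩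
    · intro x hx r
      obtain ⟨j, hj, r', rfl⟩ := mem_adj.1 hx
      exact mem_adj.2 ⟨j * r, hR j hj r, r' * r, by rw [add_mul, mul_assoc]⟩
    · intro j hj
      rcases Nat.lt_succ_iff_lt_or_eq.1 hj with hj | rfl
      · rw [hti j hj]
        exact (le_sup_left : J ≤ _) (hmem j hj)
      · rw [Function.update_self]
        exact mem_adj.2 ⟨0, zero_mem _, 1, by simp⟩
    · intro x hx
      obtain ⟨j, hj, r, rfl⟩ := mem_adj.1 hx
      obtain ⟨v, hv⟩ := hrep j hj
      refine ⟨Function.update v i r, ?_⟩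
      rw [Finset.sum_range_succ, Function.update_self, Function.update_self, hv]
      congr 1
      refine Finset.sum_congr rfl fun l hl => ?_
      rw [Finset.mem_range] at hl
      rw [hti l hl, Function.update_of_ne hl.ne]

/-- if everything vanishes in all fibres, `R = J` -/
theorem G_zero_of_Z {J : Submodule A R} {p : Ideal A} [p.IsPrime] (hz : ∀ x, Z J x p) (k : ℕ)
    (hG : G J p k) : G J p 0 := by
  induction k with
  | zero => exact hG
  | succ k ih =>
    refine ih ?_
    obtain ⟨f, hf, m, h1⟩ := hG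
    refine L2 (hz (m 0)) ⟨f, hf, fun i => m i.succ, fun x => ?_⟩
    have e : Set.range m = {m 0} ∪ Set.range fun i : Fin k => m i.succ := by
      ext z
      simp only [Set.mem_range, Set.mem_union, Set.mem_singleton_iff, Fin.exists_fin_succ]
      constructor
      · rintro (h | h)
        · exact Or.inl h.symm
        · exact Or.inr h
      · rintro (h | h)
        · exact Or.inl h.symm
        · exact Or.inr h
    rw [sup_assoc, ← span_union, ← e]
    exact h1 x

/-- ROW B -/
theorem bass : H429.SpecBass := by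
  intro A R _ _ _ _ _ d hht
  classical
  obtain ⟨m0, s, hs⟩ := Module.Finite.exists_fin (R := A) (M := R)
  set m := m0 + 1 with hmdef
  have hm : 1 ≤ m := by omega
  set h : Ideal A → ℕ := fun p => p.height.toNat with hh
  have hcoe : ∀ p : Ideal A, p.IsPrime → ((h p : ℕ) : ℕ∞) = p.height := fun p hp =>
    ENat.natCast_toNat (ne_top_of_le_ne_top (ENat.natCast_ne_top d) (hht p hp))
  have hd : ∀ p : Ideal A, p.IsPrime → h p ≤ d := fun p hp => by
    have := hht p hp
    rw [← hcoe p hp] at this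
    exact_mod_cast this
  have hlt : ∀ q p : Ideal A, q.IsPrime → p.IsPrime → q < p → h q < h p := by
    intro q p hq hp hqp
    have := hq
    have := hp
    have h1 := Ideal.height_add_one_le_of_lt_of_isPrime hqp
    rw [← hcoe p hp, ← hcoe q hq] at h1
    have h2 : h q + 1 ≤ h p := by exact_mod_cast h1
    omega
  refine ⟨m * (1 + d), by nlinarith, ?_⟩
  set n := m * (1 + d) with hn
  rintro y a ⟨b, c, hbc⟩
  have h0 : Inv h m a (⊥ : Submodule A R) 0 := by
    intro p hp _
    refine ⟨m0, ⟨1, fun h1 => hp.ne_top ((Ideal.eq_top_iff_one _).2 h1), s, fun x => ?_⟩, ?_⟩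
    · rw [one_smul, hs]
      exact mem_sup_right mem_top
    · nlinarith
  obtain ⟨t, J, hI, hR, hmem, hrep⟩ := steps hm hlt hd h0
    (fun i => if hi : i < n then y ⟨i, hi⟩ else 0) n
  -- `a` vanishes in all fibres
  have hZa : ∀ p : Ideal A, p.IsPrime → Z J a p := by
    intro p hp
    by_contra hZ
    obtain ⟨k, hk, hki⟩ := hI p hp hZ
    have h1 : m * (1 + h p) ≤ n := Nat.mul_le_mul_left _ (by
      have := hd p hp; omega)
    have h2 : k = 0 := by omega
    subst h2
    exact hZ (Z_of_G_zero hk a)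
  have hmem' : ∀ i : Fin n, y i + t i • a ∈ J := by
    intro i
    have := hmem i i.2
    simpa only [i.2, dite_true, Fin.eta] using this
  have hall : ∀ x : R, ∃ j ∈ J, ∃ r : R, x = j + a * r := by
    intro x
    refine ⟨∑ i, (y i + t i • a) * (b i * x), sum_mem fun i _ => hR _ (hmem' i) _,
      c * x - ∑ i : Fin n, t i • (b i * x), ?_⟩
    have e1 : ∑ i : Fin n, (y i + t i • a) * (b i * x) = (∑ i, y i * b i) * x +
        a * ∑ i : Fin n, t i • (b i * x) := by
      rw [Finset.sum_mul, Finset.mul_sum, ← Finset.sum_add_distrib]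
      refine Finset.sum_congr rfl fun i _ => ?_
      rw [add_mul, smul_mul_assoc, mul_smul_comm, mul_assoc]
    rw [e1, mul_sub]
    calc x = (∑ i, y i * b i + a * c) * x := by rw [hbc, one_mul]
      _ = _ := by rw [add_mul, mul_assoc a c x]; abel
  have hZx : ∀ p : Ideal A, p.IsPrime → ∀ x, Z J x p := by
    intro p hp x
    obtain ⟨f, hf, h1⟩ := hZa p hp
    obtain ⟨j, hj, r, rfl⟩ := hall x
    refine ⟨f, hf, ?_⟩
    rw [smul_add]
    refine add_mem (mem_sup_left (smul_mem _ _ hj)) ?_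
    obtain ⟨u, hu, v, hv, huv⟩ := mem_sup.1 h1
    rw [← smul_mul_assoc, ← huv, add_mul]
    refine add_mem (mem_sup_left (hR u hu r)) (mem_sup_right ?_)
    refine Submodule.smul_induction_on hv ?_ ?_
    · intro c hc z _
      rw [smul_mul_assoc]
      exact smul_mem_smul hc mem_top
    · intro z z' hz hz'
      rw [add_mul]
      exact add_mem hz hz'
  have h1J : (1 : R) ∈ J := by
    set I : Ideal A := J.comap (Algebra.linearMap A R) with hIdef
    by_contra hcon
    have hne : I ≠ ⊤ := by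
      intro h1
      rw [Ideal.eq_top_iff_one] at h1
      refine hcon ?_
      have h2 : Algebra.linearMap A R 1 ∈ J := h1
      simpa using h2
    obtain ⟨p, hpm, hIp⟩ := Ideal.exists_le_maximal I hne
    have := hpm.isPrime
    have hGm : G J p m0 := ⟨1, fun h1 => hpm.ne_top ((Ideal.eq_top_iff_one _).2 h1), s,
      fun x => by rw [one_smul, hs]; exact mem_sup_right mem_top⟩
    obtain ⟨f, hf, r, h1⟩ := G_zero_of_Z (hZx p hpm.isPrime) m0 hGm
    have h2 := h1 1
    rw [Set.range_eq_empty, span_empty, sup_bot_eq, ← Algebra.algebraMap_eq_smul_one] at h2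
    exact hf (hIp h2)
  obtain ⟨v, hv⟩ := hrep 1 h1J
  refine ⟨fun i => algebraMap A R (t i), fun i => v i, ?_⟩
  rw [hv, Finset.sum_range]
  refine Finset.sum_congr rfl fun i _ => ?_
  simp only [i.2, dite_true, Fin.eta]
  rw [← Algebra.commutes, ← Algebra.smul_def]

end Vale.Agent.P246.H672
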