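import Vale.Agent.P246.R2.H672.Fam
import Vale.Agent.P246.R2.H672.Bass

/-! P246 (helper672): Bass' stable range theorem, sharp form. -/

namespace Vale.Agent.P246.H672

open Submodule TensorProduct

variable {A R : Type} [CommRing A] [Ring R] [Algebra A R]

theorem Nil_open [IsNoetherianRing A] [Module.Finite A R] (q : PrimeSpectrum A) :
    ∃ g : A, g ∉ q.asIdeal ∧ ∀ p : PrimeSpectrum A, q.asIdeal ≤ p.asIdeal → g ∉ p.asIdeal →
      Nil A R q ≤ Nil A R p := by
  classical
  obtain ⟨m, hm⟩ := exists_pow (R := R) q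
  have hN : IsNoetherian A R := isNoetherian_of_isNoetherianRing_of_finite A R
  obtain ⟨s, hs⟩ := hN.noetherian (Nil A R q ^ (m + 1))
  have h1 : ∀ x ∈ s, ∃ f : A, f ∉ q.asIdeal ∧ f • x ∈ q.asIdeal • (⊤ : Submodule A R) :=
    fun x hx => (toFib_zero_iff q.asIdeal x).1 (hm x (by rw [← hs]; exact subset_span hx))
  choose! f hf1 hf2 using h1
  have hg : ∏ x ∈ s, f x ∉ q.asIdeal := by
    intro h
    obtain ⟨x, hx, h4⟩ := (Ideal.IsPrime.prod_mem_iff (hp := q.isPrime)).1 h
    exact hf1 x hx h4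
  refine ⟨∏ x ∈ s, f x, hg, fun p hqp hgp x hx => ?_⟩
  have h2 : ∀ z ∈ Nil A R q ^ (m + 1),
      (∏ x ∈ s, f x) • z ∈ q.asIdeal • (⊤ : Submodule A R) := by
    intro z hz
    rw [← hs] at hz
    refine Submodule.span_induction (p := fun z _ =>
      (∏ x ∈ s, f x) • z ∈ q.asIdeal • (⊤ : Submodule A R)) ?_ ?_ ?_ ?_ hz
    · intro z hz
      rw [← Finset.prod_erase_mul s f hz, mul_smul]
      exact smul_mem _ _ (hf2 z hz)
    · rw [smul_zero]; exact zero_mem _
    · intro u v _ _ hu hv
      rw [smul_add]; exact add_mem hu hv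
    · intro c u _ hu
      rw [smul_comm]; exact smul_mem _ _ hu
  rw [mem_Nil]
  refine jac_of_nil fun y => ?_
  obtain ⟨e, he, r, hr⟩ := toFib_surj p.asIdeal y
  have h3 : (r * x) ^ (m + 1) ∈ Nil A R q ^ (m + 1) := Submodule.pow_mem_pow _ (Nil_left hx r) _
  have h4 : toFib A R p.asIdeal ((r * x) ^ (m + 1)) = 0 :=
    (toFib_zero_iff p.asIdeal _).2 ⟨_, hgp, (Submodule.smul_mono_left hqp) (h2 _ h3)⟩
  refine ⟨m + 1, ?_⟩
  have h5 : sc A p.asIdeal e ≠ 0 := fun h => he (sc_eq_zero.1 h)
  have h6 : (sc A p.asIdeal e) ^ (m + 1) • (y * toFib A R p.asIdeal x) ^ (m + 1) = 0 := by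
    rw [← smul_pow, ← smul_mul_assoc, hr, ← map_mul, ← map_pow, h4]
  have h7 : (y * toFib A R p.asIdeal x) ^ (m + 1) = ((sc A p.asIdeal e) ^ (m + 1))⁻¹ •
      ((sc A p.asIdeal e) ^ (m + 1) • (y * toFib A R p.asIdeal x) ^ (m + 1)) := by
    rw [smul_smul, inv_mul_cancel₀ (pow_ne_zero _ h5), one_smul]
  rw [h7, h6, smul_zero]

theorem In_open [IsNoetherianRing A] [Module.Finite A R] (q : PrimeSpectrum A) {J : Ideal R}
    {x : R} (h : In q J x) : ∃ g : A, g ∉ q.asIdeal ∧ ∀ p : PrimeSpectrum A,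
      q.asIdeal ≤ p.asIdeal → g ∉ p.asIdeal → In p J x := by
  obtain ⟨f, hf, j, hj, h1⟩ := h.denom
  obtain ⟨g, hg, h2⟩ := Nil_open (R := R) q
  refine ⟨f * g, fun h => (q.isPrime.mem_or_mem h).elim hf hg, fun p hqp hp => ?_⟩
  exact In.of_denom (fun h => hp (p.asIdeal.mul_mem_right _ h)) hj
    (h2 p hqp (fun h => hp (p.asIdeal.mul_mem_left _ h)) h1)

/-- finitely many exceptional primes -/
theorem exc_finite [IsNoetherianRing A] [Module.Finite A R] {h : PrimeSpectrum A → ℕ}
    (hlt : ∀ q p : PrimeSpectrum A, q.asIdeal < p.asIdeal → h q < h p) {J : Ideal R} {a : R}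
    {i : ℕ} (hI : ∀ q, h q < i → In q J a) : {p | h p = i ∧ ¬ In p J a}.Finite := by
  classical
  have key : ∀ I : Ideal A, {p : PrimeSpectrum A | (h p = i ∧ ¬ In p J a) ∧ I ≤ p.asIdeal}.Finite := by
    intro I
    refine IsNoetherian.induction (R := A) (M := A) (P := fun I =>
      {p : PrimeSpectrum A | (h p = i ∧ ¬ In p J a) ∧ I ≤ p.asIdeal}.Finite) ?_ I
    intro (I : Ideal A) ih
    by_cases htop : I = ⊤
    · refine Set.finite_empty.subset ?_
      rintro p ⟨-, hp⟩
      exact p.isPrime.ne_top (top_le_iff.1 (htop ▸ hp))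
    by_cases hpr : Ideal.IsPrime I
    · set q : PrimeSpectrum A := ⟨I, hpr⟩ with hq
      by_cases hqi : h q < i
      · obtain ⟨g, hg, h2⟩ := In_open q (hI q hqi)
        refine (ih (I ⊔ Ideal.span {g}) ?_).subset ?_
        · refine lt_of_le_of_ne le_sup_left fun h3 => hg ?_
          show g ∈ I
          rw [h3]
          exact mem_sup_right (Ideal.subset_span rfl)
        · rintro p ⟨h3, h4⟩
          refine ⟨h3, sup_le h4 ?_⟩
          rw [Ideal.span_le, Set.singleton_subset_iff]
          by_contra h5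
          exact h3.2 (h2 p h4 h5)
      · refine (Set.finite_singleton q).subset ?_
        rintro p ⟨h3, h4⟩
        rcases eq_or_lt_of_le h4 with h5 | h5
        · exact PrimeSpectrum.ext h5.symm
        · have := hlt q p h5
          omega
    · rw [Ideal.isPrime_iff] at hpr
      push Not at hpr
      obtain ⟨x, y, hxy, hx, hy⟩ := hpr htop
      refine ((ih (I ⊔ Ideal.span {x}) ?_).union (ih (I ⊔ Ideal.span {y}) ?_)).subset ?_
      · refine lt_of_le_of_ne le_sup_left fun h3 => hx ?_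
        rw [h3]
        exact mem_sup_right (Ideal.subset_span rfl)
      · refine lt_of_le_of_ne le_sup_left fun h3 => hy ?_
        rw [h3]
        exact mem_sup_right (Ideal.subset_span rfl)
      · rintro p ⟨h3, h4⟩
        rcases p.isPrime.mem_or_mem (h4 hxy) with h5 | h5
        · refine Or.inl ⟨h3, sup_le h4 ?_⟩
          rwa [Ideal.span_le, Set.singleton_subset_iff]
        · refine Or.inr ⟨h3, sup_le h4 ?_⟩
          rwa [Ideal.span_le, Set.singleton_subset_iff]
  refine (key ⊥).subset fun p hp => ⟨hp, bot_le⟩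

theorem gen2 {k L : Type} [Field k] [Ring L] [Algebra k L] [Module.Finite k L] (J : Ideal L)
    (y a l : L) (h : a ∈ J ⊔ Ideal.span {y + l * a}) (T : Set k)
    (hT : T.Infinite ∨ (1 : k) ∈ T) : ∃ s ∈ T, a ∈ J ⊔ Ideal.span {y + (s • l) * a} := by
  rcases hT with hT | hT
  · obtain ⟨s, hs, hb⟩ := hT.exists_notMem_finite (generic J y a l h)
    exact ⟨s, hs, by simpa using hb⟩
  · exact ⟨1, hT, by rwa [one_smul]⟩

theorem T_good (p : PrimeSpectrum A) {w : A} (hw : w ∉ p.asIdeal) :
    (Set.range fun c : A => sc A p.asIdeal (w * c)).Infinite ∨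
      (1 : FractionRing (A ⧸ p.asIdeal)) ∈ Set.range fun c : A => sc A p.asIdeal (w * c) := by
  have hne : Ideal.Quotient.mk p.asIdeal w ≠ 0 := fun h =>
    hw (Ideal.Quotient.eq_zero_iff_mem.1 h)
  have hw0 : sc A p.asIdeal w ≠ 0 := fun h => hw (sc_eq_zero.1 h)
  by_cases hfi : Finite (A ⧸ p.asIdeal)
  · right
    have hfield : IsField (A ⧸ p.asIdeal) := Finite.isField_of_domain _
    obtain ⟨b, hb⟩ := hfield.mul_inv_cancel hne
    obtain ⟨c, rfl⟩ := Ideal.Quotient.mk_surjective b
    refine ⟨c, ?_⟩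
    show sc A p.asIdeal (w * c) = 1
    unfold sc
    rw [RingHom.comp_apply, map_mul, hb, map_one]
  · left
    have hinf : Infinite (A ⧸ p.asIdeal) := not_finite_iff_infinite.1 hfi
    have h2 : (Set.range fun b : A ⧸ p.asIdeal => sc A p.asIdeal w *
        algebraMap (A ⧸ p.asIdeal) (FractionRing (A ⧸ p.asIdeal)) b).Infinite := by
      refine Set.infinite_range_of_injective fun b b' hbb => ?_
      exact IsFractionRing.injective (A ⧸ p.asIdeal) _ (mul_left_cancel₀ hw0 hbb)
    refine h2.mono ?_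
    rintro _ ⟨b, rfl⟩
    obtain ⟨c, rfl⟩ := Ideal.Quotient.mk_surjective b
    refine ⟨c, ?_⟩
    show sc A p.asIdeal (w * c) = _
    rw [map_mul]
    rfl

/-- the step at one prime -/
theorem step_one [Module.Finite A R] (p : PrimeSpectrum A) (J : Ideal R) (y a : R) {u : A}
    (hu : u ∉ p.asIdeal) : ∃ t : R, toFib A R p.asIdeal a ∈
      F p J ⊔ Ideal.span {toFib A R p.asIdeal y +
        toFib A R p.asIdeal (u • t) * toFib A R p.asIdeal a} := by
  have hA : IsArtinianRing (Fib A R p.asIdeal) := instArtFib p.asIdeal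
  obtain ⟨l, hl⟩ := art_step (F p J) (jac_le_F p J) (toFib A R p.asIdeal y)
    (toFib A R p.asIdeal a)
  obtain ⟨f, hf, r, hr⟩ := toFib_surj p.asIdeal l
  obtain ⟨_, ⟨c, rfl⟩, hc⟩ := gen2 (k := FractionRing (A ⧸ p.asIdeal)) _ _ _ _ hl _
    (T_good p (w := u * f) fun h => (p.isPrime.mem_or_mem h).elim hu hf)
  refine ⟨c • r, ?_⟩
  have h3 : toFib A R p.asIdeal (u • c • r) = sc A p.asIdeal (u * f * c) • l := by
    rw [toFib_smul, toFib_smul, ← hr, smul_smul, smul_smul, ← map_mul, ← map_mul,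
      show u * c * f = u * f * c by ring]
  rw [h3]
  exact hc

/-- the step at finitely many incomparable primes -/
theorem step_fin [Module.Finite A R] (S : Finset (PrimeSpectrum A))
    (hS : ∀ p ∈ S, ∀ q ∈ S, p ≠ q → ¬ p.asIdeal ≤ q.asIdeal) (J : Ideal R) (y a : R) :
    ∃ t : R, ∀ p ∈ S, In p (J ⊔ Ideal.span {y + t * a}) a := by
  classical
  have hu : ∀ p ∈ S, ∃ u : A, u ∉ p.asIdeal ∧ ∀ q ∈ S, q ≠ p → u ∈ q.asIdeal := by
    intro p hp
    have h1 : ∀ q ∈ S.erase p, ∃ w ∈ q.asIdeal, w ∉ p.asIdeal := fun q hq =>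
      SetLike.not_le_iff_exists.1 (hS q (Finset.mem_of_mem_erase hq) p hp
        (Finset.ne_of_mem_erase hq))
    choose! w hw1 hw2 using h1
    refine ⟨∏ q ∈ S.erase p, w q, fun h => ?_, fun q hq hqp => ?_⟩
    · obtain ⟨q, hq, h4⟩ := (Ideal.IsPrime.prod_mem_iff (hp := p.isPrime)).1 h
      exact hw2 q hq h4
    · have hq' : q ∈ S.erase p := Finset.mem_erase.2 ⟨hqp, hq⟩
      exact q.asIdeal.mem_of_dvd (Finset.dvd_prod_of_mem w hq') (hw1 q hq')
  choose! u hu1 hu2 using hu
  have ht : ∀ p ∈ S, ∃ t : R, toFib A R p.asIdeal a ∈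
      F p J ⊔ Ideal.span {toFib A R p.asIdeal y +
        toFib A R p.asIdeal (u p • t) * toFib A R p.asIdeal a} := fun p hp =>
    step_one p J y a (hu1 p hp)
  choose! t ht using ht
  refine ⟨∑ p ∈ S, u p • t p, fun p hp => ?_⟩
  have h1 : toFib A R p.asIdeal (∑ q ∈ S, u q • t q) = toFib A R p.asIdeal (u p • t p) := by
    rw [map_sum, Finset.sum_eq_single p]
    · intro q hq hqp
      rw [toFib_smul, sc_eq_zero.2 (hu2 q hq p hp (Ne.symm hqp)), zero_smul]
    · exact fun h => absurd hp h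
  have h2 := ht p hp
  rw [← h1, ← map_mul, ← map_add] at h2
  have h3 : F p J ⊔ Ideal.span {toFib A R p.asIdeal (y + (∑ q ∈ S, u q • t q) * a)} ≤
      F p (J ⊔ Ideal.span {y + (∑ q ∈ S, u q • t q) * a}) := by
    refine sup_le (F_mono p le_sup_left) ?_
    rw [Ideal.span_le, Set.singleton_subset_iff]
    exact toFib_mem_F (mem_sup_right (Ideal.subset_span rfl))
  exact h3 h2

/-- the end of the induction -/
theorem eq_top_of_In [IsNoetherianRing A] [Module.Finite A R] {J : Ideal R} {a : R}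
    (h : ∀ p : PrimeSpectrum A, In p J a) (hJ : ∃ j ∈ J, ∃ r : R, j + r * a = 1) :
    (1 : R) ∈ J := by
  classical
  obtain ⟨j0, hj0, r0, hjr⟩ := hJ
  have hone : ∀ p : PrimeSpectrum A, In p J 1 := by
    intro p
    show toFib A R p.asIdeal 1 ∈ F p J
    rw [← hjr, map_add, map_mul]
    exact add_mem (toFib_mem_F hj0) (Ideal.mul_mem_left _ _ (h p))
  set J' : Submodule A R := J.restrictScalars A with hJ'
  have hZ : ∀ p : PrimeSpectrum A, ∀ x : R, Z J' x p.asIdeal := by
    intro p x
    obtain ⟨f, hf, j, hj, h1⟩ := (hone p).denom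
    obtain ⟨m, hm⟩ := exists_pow (R := R) p
    have h2 : (f • (1 : R) - j) ^ (m + 1) ∈ Nil A R p ^ (m + 1) :=
      Submodule.pow_mem_pow _ (mem_Nil.2 h1) _
    obtain ⟨g, hg, h3⟩ := (toFib_zero_iff p.asIdeal _).1 (hm _ h2)
    have h4 : ∀ n : ℕ, (f • (1 : R) - j) ^ n - f ^ n • (1 : R) ∈ J := by
      intro n
      induction n with
      | zero => simp
      | succ n ih =>
        have e1 : (f • (1 : R) - j) ^ (n + 1) - f ^ (n + 1) • (1 : R) =
            (algebraMap A R f) * ((f • (1 : R) - j) ^ n - f ^ n • (1 : R)) -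
              (f • (1 : R) - j) ^ n * j := by
          rw [pow_succ, mul_sub, mul_smul_comm, mul_one, mul_sub, ← Algebra.smul_def,
            ← Algebra.smul_def, smul_smul, ← pow_succ']
          abel
        rw [e1]
        exact sub_mem (J.mul_mem_left _ ih) (J.mul_mem_left _ hj)
    refine ⟨g * f ^ (m + 1), fun h5 => (p.isPrime.mem_or_mem h5).elim hg
      fun h6 => hf (p.isPrime.mem_of_pow_mem _ h6), ?_⟩
    have e2 : (g * f ^ (m + 1)) • x = -(x * (algebraMap A R g *
        ((f • (1 : R) - j) ^ (m + 1) - f ^ (m + 1) • (1 : R)))) +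
        x * (g • (f • (1 : R) - j) ^ (m + 1)) := by
      rw [← Algebra.smul_def, smul_sub, mul_sub, smul_smul, mul_smul_comm, mul_smul_comm, mul_one]
      abel
    rw [e2]
    refine add_mem (mem_sup_left (neg_mem ?_)) (mem_sup_right ?_)
    · exact J.mul_mem_left _ (J.mul_mem_left _ (h4 _))
    · refine Submodule.smul_induction_on h3 ?_ ?_
      · intro c hc z _
        rw [mul_smul_comm]
        exact smul_mem_smul hc mem_top
      · intro z z' hz hz'
        rw [mul_add]
        exact add_mem hz hz'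
  obtain ⟨m0, s, hs⟩ := Module.Finite.exists_fin (R := A) (M := R)
  set I : Ideal A := J'.comap (Algebra.linearMap A R) with hIdef
  by_contra hcon
  have hne : I ≠ ⊤ := by
    intro h1
    rw [Ideal.eq_top_iff_one] at h1
    refine hcon ?_
    have h2 : Algebra.linearMap A R 1 ∈ J' := h1
    have h3 : (1 : R) ∈ J' := by
      rwa [Algebra.linearMap_apply, map_one] at h2
    exact h3
  obtain ⟨p, hpm, hIp⟩ := Ideal.exists_le_maximal I hne
  have hpp := hpm.isPrime
  have hGm : G J' p m0 := ⟨1, fun h1 => hpm.ne_top ((Ideal.eq_top_iff_one _).2 h1), s,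
    fun x => by rw [one_smul, hs]; exact mem_sup_right mem_top⟩
  obtain ⟨f, hf, r, h1⟩ := G_zero_of_Z (fun x => hZ ⟨p, hpp⟩ x) m0 hGm
  have h2 := h1 1
  rw [Set.range_eq_empty, span_empty, sup_bot_eq, ← Algebra.algebraMap_eq_smul_one] at h2
  exact hf (hIp h2)

/-- the left version -/
theorem bassL (A R : Type) [CommRing A] [IsNoetherianRing A] [Ring R] [Algebra A R]
    [Module.Finite A R] (d : ℕ) (hht : ∀ p : Ideal A, p.IsPrime → p.height ≤ d)
    (y : Fin (d + 1) → R) (a : R) (hy : ∃ (b : Fin (d + 1) → R) (c : R),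
      ∑ i, b i * y i + c * a = 1) : ∃ t v : Fin (d + 1) → R, ∑ i, v i * (y i + t i * a) = 1 := by
  classical
  obtain ⟨b, c, hbc⟩ := hy
  set h : PrimeSpectrum A → ℕ := fun p => p.asIdeal.height.toNat with hh
  have hcoe : ∀ p : PrimeSpectrum A, ((h p : ℕ) : ℕ∞) = p.asIdeal.height := fun p =>
    ENat.natCast_toNat (ne_top_of_le_ne_top (ENat.natCast_ne_top d) (hht p.asIdeal p.isPrime))
  have hd : ∀ p : PrimeSpectrum A, h p ≤ d := fun p => by
    have := hht p.asIdeal p.isPrime
    rw [← hcoe p] at this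
    exact_mod_cast this
  have hlt : ∀ q p : PrimeSpectrum A, q.asIdeal < p.asIdeal → h q < h p := by
    intro q p hqp
    have h1 := Ideal.height_add_one_le_of_lt_of_isPrime hqp
    rw [← hcoe p, ← hcoe q] at h1
    have h2 : h q + 1 ≤ h p := by exact_mod_cast h1
    omega
  set Y : ℕ → R := fun i => if hi : i < d + 1 then y ⟨i, hi⟩ else 0 with hY
  have main : ∀ i : ℕ, ∃ (t : ℕ → R) (J : Ideal R), (∀ p : PrimeSpectrum A, h p < i → In p J a) ∧
      (∀ j < i, Y j + t j * a ∈ J) ∧
      ∀ x ∈ J, ∃ v : ℕ → R, x = ∑ j ∈ Finset.range i, v j * (Y j + t j * a) := by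
    intro i
    induction i with
    | zero =>
      refine ⟨fun _ => 0, ⊥, fun p hp => absurd hp (Nat.not_lt_zero _), by simp, fun x hx => ?_⟩
      rw [mem_bot] at hx
      exact ⟨fun _ => 0, by simp [hx]⟩
    | succ i ih =>
      obtain ⟨t, J, hI, hmem, hrep⟩ := ih
      have hfin := exc_finite hlt hI
      obtain ⟨s, hs⟩ := step_fin hfin.toFinset (fun p hp q hq hpq hle => by
        rw [Set.Finite.mem_toFinset] at hp hq
        rcases eq_or_lt_of_le hle with h5 | h5
        · exact hpq (PrimeSpectrum.ext h5)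
        · have := hlt p q h5
          have h6 := hp.1
          have h7 := hq.1
          omega) J (Y i) a
      have hti : ∀ j, j < i → Function.update t i s j = t j := fun j hj =>
        Function.update_of_ne hj.ne _ _
      refine ⟨Function.update t i s, J ⊔ Ideal.span {Y i + s * a}, ?_, ?_, ?_⟩
      · intro p hp
        by_cases hIn : In p J a
        · exact hIn.mono le_sup_left
        · refine hs p ?_
          rw [Set.Finite.mem_toFinset]
          refine ⟨?_, hIn⟩
          by_contra hne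
          exact hIn (hI p (by omega))
      · intro j hj
        rcases Nat.lt_succ_iff_lt_or_eq.1 hj with hj | rfl
        · rw [hti j hj]
          exact mem_sup_left (hmem j hj)
        · rw [Function.update_self]
          exact mem_sup_right (Ideal.subset_span rfl)
      · intro x hx
        obtain ⟨j, hj, z, hz, rfl⟩ := mem_sup.1 hx
        obtain ⟨r, rfl⟩ := Ideal.mem_span_singleton'.1 hz
        obtain ⟨v, hv⟩ := hrep j hj
        refine ⟨Function.update v i r, ?_⟩
        rw [Finset.sum_range_succ, Function.update_self, Function.update_self, hv]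
        congr 1
        refine Finset.sum_congr rfl fun l hl => ?_
        rw [Finset.mem_range] at hl
        rw [hti l hl, Function.update_of_ne hl.ne]
  obtain ⟨t, J, hI, hmem, hrep⟩ := main (d + 1)
  have hmem' : ∀ i : Fin (d + 1), y i + t i * a ∈ J := by
    intro i
    have := hmem i i.2
    simpa only [hY, i.2, dite_true, Fin.eta] using this
  have h1J : (1 : R) ∈ J := by
    refine eq_top_of_In (fun p => hI p (Nat.lt_succ_of_le (hd p)))
      ⟨∑ i, b i * (y i + t i * a), sum_mem fun i _ => J.mul_mem_left _ (hmem' i),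
        c - ∑ i : Fin (d + 1), b i * t i, ?_⟩
    rw [← hbc, sub_mul, Finset.sum_mul]
    have e1 : ∑ i, b i * (y i + t i * a) = ∑ i, b i * y i + ∑ i : Fin (d + 1), b i * t i * a := by
      rw [← Finset.sum_add_distrib]
      exact Finset.sum_congr rfl fun i _ => by rw [mul_add, mul_assoc]
    rw [e1]
    abel
  obtain ⟨v, hv⟩ := hrep 1 h1J
  refine ⟨fun i => t i, fun i => v i, ?_⟩
  rw [hv, Finset.sum_range]
  refine Finset.sum_congr rfl fun i _ => ?_
  simp only [hY, i.2, dite_true, Fin.eta]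

/-- Bass' theorem: an algebra finite over a central noetherian ring with all heights at most `d`
has stable range `d + 1`. -/
theorem bass2 (A R : Type) [CommRing A] [IsNoetherianRing A] [Ring R] [Algebra A R]
    [Module.Finite A R] (d : ℕ) (hht : ∀ p : Ideal A, p.IsPrime → p.height ≤ d) :
    H429.SR R (d + 1) := by
  rintro y a ⟨b, c, hbc⟩
  have hfin : Module.Finite A Rᵐᵒᵖ := Module.Finite.equiv (MulOpposite.opLinearEquiv A)
  obtain ⟨t, v, htv⟩ := bassL A Rᵐᵒᵖ d hht (fun i => MulOpposite.op (y i)) (MulOpposite.op a)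
    ⟨fun i => MulOpposite.op (b i), MulOpposite.op c, by
      have := congrArg MulOpposite.op hbc
      rw [MulOpposite.op_add, MulOpposite.op_mul, MulOpposite.op_one, Finset.op_sum] at this
      simpa only [MulOpposite.op_mul] using this⟩
  refine ⟨fun i => (t i).unop, fun i => (v i).unop, ?_⟩
  have := congrArg MulOpposite.unop htv
  rw [Finset.unop_sum, MulOpposite.unop_one] at this
  simpa only [MulOpposite.unop_mul, MulOpposite.unop_add, MulOpposite.unop_op] using this

end Vale.Agent.P246.H672
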