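import Mathlib

/-! P246 (helper672): the good parameters are generic. -/

namespace Vale.Agent.P246.H672

open Submodule

theorem generic {k L : Type} [Field k] [Ring L] [Algebra k L] [Module.Finite k L] (J : Ideal L)
    (y a l : L) (h : a ∈ J ⊔ Ideal.span {y + l * a}) :
    {s : k | a ∉ J ⊔ Ideal.span {y + (s • l) * a}}.Finite := by
  classical
  set u : L := y + l * a with hu
  set N : Ideal L := J ⊔ Ideal.span {u} with hN
  have huN : u ∈ N := mem_sup_right (Ideal.subset_span rfl)
  let Q : L →ₗ[k] (L ⧸ J) := (mkQ J).restrictScalars k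
  have hQ : ∀ x, Q x = mkQ J x := fun x => rfl
  let W : Submodule k (L ⧸ J) := (Submodule.map (mkQ J) N).restrictScalars k
  have hW : ∀ x ∈ N, Q x ∈ W := fun x hx => ⟨x, hx, rfl⟩
  let T : L →ₗ[k] W := (Q.comp (LinearMap.mulRight k u)).codRestrict W fun x =>
    hW _ (Ideal.mul_mem_left _ _ huN)
  let T' : L →ₗ[k] W := (Q.comp (LinearMap.mulRight k (l * a))).codRestrict W fun x =>
    hW _ (Ideal.mul_mem_left _ _ (Ideal.mul_mem_left _ _ h))
  have hT : LinearMap.range T = ⊤ := by
    rw [LinearMap.range_eq_top]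
    rintro ⟨_, n, hn, rfl⟩
    obtain ⟨j, hj, z, hz, rfl⟩ := mem_sup.1 hn
    obtain ⟨x, rfl⟩ := Ideal.mem_span_singleton'.1 hz
    refine ⟨x, Subtype.ext ?_⟩
    show mkQ J (x * u) = mkQ J (j + x * u)
    rw [map_add, mkQ_apply J j, (Quotient.mk_eq_zero J).2 hj, zero_add]
  obtain ⟨σ, hσ⟩ := LinearMap.exists_rightInverse_of_surjective T hT
  let F : Module.End k W := T'.comp σ
  have hfin : {m : k | F.HasEigenvalue m}.Finite := Module.End.finite_hasEigenvalue F
  refine (hfin.image fun m => 1 - m⁻¹).subset ?_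
  intro s hs
  by_cases hs1 : s = 1
  · subst hs1
    exact absurd h (by simpa using hs)
  have hs1' : s - 1 ≠ 0 := sub_ne_zero.2 hs1
  let E : Module.End k W := 1 + (s - 1) • F
  by_cases hE : Function.Injective E
  · exfalso
    obtain ⟨w, hw⟩ := (LinearMap.injective_iff_surjective.1 hE) ⟨Q a, hW a h⟩
    apply hs
    have h1 : Q (σ w * (y + (s • l) * a)) = Q a := by
      have h2 := congrArg Subtype.val hw
      have h3 : (T (σ w) : L ⧸ J) = (w : L ⧸ J) := congrArg Subtype.val (LinearMap.congr_fun hσ w)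
      have h4 : Q (σ w * u) + (s - 1) • Q (σ w * (l * a)) = Q a := by
        rw [show Q (σ w * u) = (T (σ w) : L ⧸ J) from rfl, h3]
        exact h2
      rw [← h4, ← map_smul, ← map_add]
      congr 1
      rw [hu, mul_add, mul_add, smul_mul_assoc, mul_smul_comm, sub_smul, one_smul]
      abel
    have h5 : a - σ w * (y + (s • l) * a) ∈ J := by
      rw [← Submodule.Quotient.eq]
      exact h1.symm
    have h6 : a = (a - σ w * (y + (s • l) * a)) + σ w * (y + (s • l) * a) := by abel
    have h7 : (a - σ w * (y + (s • l) * a)) + σ w * (y + (s • l) * a) ∈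
        J ⊔ Ideal.span {y + (s • l) * a} :=
      add_mem (mem_sup_left h5)
        (mem_sup_right (Ideal.mul_mem_left _ _ (Ideal.subset_span rfl)))
    rwa [← h6] at h7
  · rw [injective_iff_map_eq_zero] at hE
    push Not at hE
    obtain ⟨w, hw, hw0⟩ := hE
    refine ⟨-(s - 1)⁻¹, ?_, ?_⟩
    · have h1 : w + (s - 1) • F w = 0 := hw
      have h2 : F w = (-(s - 1)⁻¹) • w := by
        have h3 : (s - 1) • F w = -w := by
          rw [add_comm] at h1
          exact eq_neg_of_add_eq_zero_left h1
        calc F w = (s - 1)⁻¹ • ((s - 1) • F w) := by rw [smul_smul, inv_mul_cancel₀ hs1', one_smul]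
          _ = _ := by
            rw [h3, smul_neg]
            exact (neg_smul ((s - 1)⁻¹) w).symm
      exact Module.End.hasEigenvalue_of_hasEigenvector
        (x := w) ⟨Module.End.mem_eigenspace_iff.2 h2, hw0⟩
    · show 1 - (-(s - 1)⁻¹)⁻¹ = s
      rw [inv_neg, inv_inv]
      ring

end Vale.Agent.P246.H672
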