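import Mathlib

/-! P246 (helper672): the fibres of a finite algebra. -/

namespace Vale.Agent.P246.H672

open Submodule TensorProduct

/-- The fibre at a prime: a finite-dimensional algebra over the residue field. -/
abbrev Fib (A R : Type) [CommRing A] [Ring R] [Algebra A R] (p : Ideal A) [p.IsPrime] : Type :=
  FractionRing (A ⧸ p) ⊗[A ⧸ p] ((A ⧸ p) ⊗[A] R)

/-- the scalars of the fibre -/
noncomputable def sc (A : Type) [CommRing A] (p : Ideal A) [p.IsPrime] :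
    A →+* FractionRing (A ⧸ p) :=
  (algebraMap (A ⧸ p) (FractionRing (A ⧸ p))).comp (Ideal.Quotient.mk p)

theorem sc_eq_zero {A : Type} [CommRing A] {p : Ideal A} [p.IsPrime] {f : A} :
    sc A p f = 0 ↔ f ∈ p := by
  unfold sc
  rw [RingHom.comp_apply, map_eq_zero_iff _ (IsFractionRing.injective (A ⧸ p) _),
    Ideal.Quotient.eq_zero_iff_mem]

/-- the map to the fibre -/
noncomputable def toFib (A R : Type) [CommRing A] [Ring R] [Algebra A R] (p : Ideal A)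
    [p.IsPrime] : R →+* Fib A R p :=
  (Algebra.TensorProduct.includeRight : (A ⧸ p) ⊗[A] R →ₐ[A ⧸ p] Fib A R p).toRingHom.comp
    (Algebra.TensorProduct.includeRight : R →ₐ[A] (A ⧸ p) ⊗[A] R).toRingHom

variable {A R : Type} [CommRing A] [Ring R] [Algebra A R]

instance (p : Ideal A) [p.IsPrime] [Module.Finite A R] :
    Module.Finite (FractionRing (A ⧸ p)) (Fib A R p) := inferInstance

instance instArtFib (p : Ideal A) [p.IsPrime] [Module.Finite A R] : IsArtinianRing (Fib A R p) :=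
  IsArtinianRing.of_finite (FractionRing (A ⧸ p)) (Fib A R p)

theorem smul_tmul_one (p : Ideal A) (f : A) (x : R) :
    (Ideal.Quotient.mk p f) • ((1 : A ⧸ p) ⊗ₜ[A] x) = (1 : A ⧸ p) ⊗ₜ[A] (f • x) := by
  rw [TensorProduct.smul_tmul', smul_eq_mul, mul_one, ← mul_one (Ideal.Quotient.mk p f),
    ← TensorProduct.smul_tmul]
  rfl

theorem surj_one (p : Ideal A) (z : (A ⧸ p) ⊗[A] R) : ∃ x : R, z = (1 : A ⧸ p) ⊗ₜ[A] x := by
  induction z using TensorProduct.induction_on with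
  | zero => exact ⟨0, by rw [tmul_zero]⟩
  | tmul u v =>
    obtain ⟨f, rfl⟩ := Ideal.Quotient.mk_surjective u
    refine ⟨f • v, ?_⟩
    rw [← smul_tmul_one, TensorProduct.smul_tmul', smul_eq_mul, mul_one]
  | add z w hz hw =>
    obtain ⟨x, rfl⟩ := hz
    obtain ⟨y, rfl⟩ := hw
    exact ⟨x + y, by rw [tmul_add]⟩

theorem one_tmul_zero (p : Ideal A) (x : R) :
    (1 : A ⧸ p) ⊗ₜ[A] x = 0 ↔ x ∈ p • (⊤ : Submodule A R) := by
  rw [← (TensorProduct.quotTensorEquivQuotSMul R p).map_eq_zero_iff]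
  have h1 : TensorProduct.quotTensorEquivQuotSMul R p ((1 : A ⧸ p) ⊗ₜ[A] x) =
      Submodule.Quotient.mk x := by
    have := TensorProduct.quotTensorEquivQuotSMul_mk_tmul p (1 : A) x
    rwa [one_smul] at this
  rw [h1, Submodule.Quotient.mk_eq_zero]

theorem toFib_apply (p : Ideal A) [p.IsPrime] (x : R) :
    toFib A R p x = (1 : FractionRing (A ⧸ p)) ⊗ₜ[A ⧸ p] ((1 : A ⧸ p) ⊗ₜ[A] x) := rfl

theorem toFib_smul (p : Ideal A) [p.IsPrime] (f : A) (x : R) :
    toFib A R p (f • x) = sc A p f • toFib A R p x := by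
  rw [toFib_apply, toFib_apply, ← smul_tmul_one, TensorProduct.tmul_smul,
    TensorProduct.smul_tmul', TensorProduct.smul_tmul', Algebra.smul_def]
  rfl

theorem toFib_zero_iff (p : Ideal A) [p.IsPrime] (x : R) :
    toFib A R p x = 0 ↔ ∃ f : A, f ∉ p ∧ f • x ∈ p • (⊤ : Submodule A R) := by
  rw [toFib_apply]
  have h1 := IsLocalizedModule.eq_zero_iff (nonZeroDivisors (A ⧸ p))
    (TensorProduct.mk (A ⧸ p) (FractionRing (A ⧸ p)) ((A ⧸ p) ⊗[A] R) 1)
    (m := (1 : A ⧸ p) ⊗ₜ[A] x)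
  rw [TensorProduct.mk_apply] at h1
  rw [h1]
  constructor
  · rintro ⟨⟨s, hs⟩, h2⟩
    obtain ⟨f, rfl⟩ := Ideal.Quotient.mk_surjective s
    refine ⟨f, fun h3 => ?_, ?_⟩
    · exact nonZeroDivisors.ne_zero hs (Ideal.Quotient.eq_zero_iff_mem.2 h3)
    · rw [← one_tmul_zero, ← smul_tmul_one]
      exact h2
  · rintro ⟨f, hf, h2⟩
    refine ⟨⟨Ideal.Quotient.mk p f, mem_nonZeroDivisors_of_ne_zero fun h3 =>
      hf (Ideal.Quotient.eq_zero_iff_mem.1 h3)⟩, ?_⟩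
    rw [← one_tmul_zero, ← smul_tmul_one] at h2
    exact h2

theorem toFib_surj (p : Ideal A) [p.IsPrime] (z : Fib A R p) :
    ∃ f : A, f ∉ p ∧ ∃ x : R, sc A p f • z = toFib A R p x := by
  obtain ⟨⟨m, s, hs⟩, h1⟩ := IsLocalizedModule.surj (nonZeroDivisors (A ⧸ p))
    (TensorProduct.mk (A ⧸ p) (FractionRing (A ⧸ p)) ((A ⧸ p) ⊗[A] R) 1) z
  obtain ⟨x, rfl⟩ := surj_one p m
  obtain ⟨f, rfl⟩ := Ideal.Quotient.mk_surjective s
  refine ⟨f, fun h3 => nonZeroDivisors.ne_zero hs (Ideal.Quotient.eq_zero_iff_mem.2 h3), x, ?_⟩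
  rw [toFib_apply]
  have h2 : (Ideal.Quotient.mk p f) • z =
      (1 : FractionRing (A ⧸ p)) ⊗ₜ[A ⧸ p] ((1 : A ⧸ p) ⊗ₜ[A] x) := h1
  rw [← h2]
  exact algebraMap_smul (FractionRing (A ⧸ p)) (Ideal.Quotient.mk p f) z

end Vale.Agent.P246.H672
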