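import Vale.Agent.P246.R2.H672.SS
import Vale.Agent.P246.R2.H672.Gen
import Vale.Agent.P246.R2.H672.Res

/-! P246 (helper672): membership of an element in the fibres of a left ideal. -/

namespace Vale.Agent.P246.H672

open Submodule TensorProduct

theorem art_step {L : Type} [Ring L] [IsArtinianRing L] (J : Ideal L) (hJ : Ring.jacobson L ≤ J)
    (y a : L) : ∃ t : L, a ∈ J ⊔ Ideal.span {y + t * a} := by
  have : IsSemisimpleRing (L ⧸ Ring.jacobson L) := inferInstance
  have : IsArtinianRing (L ⧸ Ring.jacobson L) := inferInstance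
  have : IsNoetherianRing (L ⧸ Ring.jacobson L) := inferInstance
  let q : L →+* (L ⧸ Ring.jacobson L) := Ideal.Quotient.mk (Ring.jacobson L)
  obtain ⟨t', ht'⟩ := ss_step (J.map q) (q y) (q a)
  obtain ⟨t, rfl⟩ := Ideal.Quotient.mk_surjective t'
  refine ⟨t, ?_⟩
  have h1 : (q a) ∈ (J ⊔ Ideal.span {y + t * a}).map q := by
    rw [Ideal.map_sup, Ideal.map_span, Set.image_singleton, map_add, map_mul]
    exact ht'
  obtain ⟨b, hb, hqb⟩ := (Ideal.mem_map_iff_of_surjective q Ideal.Quotient.mk_surjective).1 h1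
  have h2 : a - b ∈ Ring.jacobson L := by
    rw [← Ideal.Quotient.eq]
    exact hqb.symm
  have h3 : a = (a - b) + b := by abel
  rw [h3]
  exact add_mem (mem_sup_left (hJ h2)) (by rw [← h3]; exact hb)


variable {A R : Type} [CommRing A] [Ring R] [Algebra A R]

/-- the left ideal of the fibre generated by `J` and the radical -/
noncomputable def F (p : PrimeSpectrum A) (J : Ideal R) : Ideal (Fib A R p.asIdeal) :=
  Ideal.span (toFib A R p.asIdeal '' J) ⊔ Ring.jacobson (Fib A R p.asIdeal)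

/-- `x` is in `J` at `p`, modulo the radical -/
def In (p : PrimeSpectrum A) (J : Ideal R) (x : R) : Prop := toFib A R p.asIdeal x ∈ F p J

theorem F_mono (p : PrimeSpectrum A) {J J' : Ideal R} (h : J ≤ J') :
    F (A := A) p J ≤ F p J' :=
  sup_le_sup_right (Ideal.span_mono (Set.image_mono h)) _

theorem In.mono {p : PrimeSpectrum A} {J J' : Ideal R} (h : J ≤ J') {x : R} (hx : In p J x) :
    In p J' x := F_mono p h hx

theorem jac_le_F (p : PrimeSpectrum A) (J : Ideal R) :
    Ring.jacobson (Fib A R p.asIdeal) ≤ F p J := le_sup_right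

theorem toFib_mem_F {p : PrimeSpectrum A} {J : Ideal R} {x : R} (hx : x ∈ J) :
    toFib A R p.asIdeal x ∈ F p J :=
  mem_sup_left (Ideal.subset_span ⟨x, hx, rfl⟩)

theorem F_smul {p : PrimeSpectrum A} {I : Ideal (Fib A R p.asIdeal)}
    {c : FractionRing (A ⧸ p.asIdeal)} {z : Fib A R p.asIdeal} (hz : z ∈ I) : c • z ∈ I := by
  rw [← one_mul z, ← smul_mul_assoc]
  exact I.mul_mem_left _ hz

theorem F_of_smul {p : PrimeSpectrum A} {I : Ideal (Fib A R p.asIdeal)} {f : A}
    (hf : f ∉ p.asIdeal) {z : Fib A R p.asIdeal} (hz : sc A p.asIdeal f • z ∈ I) : z ∈ I := by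
  have h1 : sc A p.asIdeal f ≠ 0 := fun h => hf (sc_eq_zero.1 h)
  have h2 := F_smul (c := (sc A p.asIdeal f)⁻¹) hz
  rwa [smul_smul, inv_mul_cancel₀ h1, one_smul] at h2

/-- elements of the generated ideal come from `J`, up to a denominator -/
theorem span_denom {p : PrimeSpectrum A} {J : Ideal R} {u : Fib A R p.asIdeal}
    (hu : u ∈ Ideal.span (toFib A R p.asIdeal '' J)) :
    ∃ f : A, f ∉ p.asIdeal ∧ ∃ j ∈ J, sc A p.asIdeal f • u = toFib A R p.asIdeal j := by
  have h1 : (1 : A) ∉ p.asIdeal := fun h => p.isPrime.ne_top ((Ideal.eq_top_iff_one _).2 h)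
  refine Submodule.span_induction (p := fun u _ => ∃ f : A, f ∉ p.asIdeal ∧ ∃ j ∈ J,
    sc A p.asIdeal f • u = toFib A R p.asIdeal j) ?_ ?_ ?_ ?_ hu
  · rintro _ ⟨j, hj, rfl⟩
    exact ⟨1, h1, j, hj, by rw [map_one, one_smul]⟩
  · exact ⟨1, h1, 0, J.zero_mem, by rw [smul_zero, map_zero]⟩
  · rintro u v _ _ ⟨f, hf, j, hj, h2⟩ ⟨g, hg, i, hi, h3⟩
    refine ⟨f * g, fun h => (p.isPrime.mem_or_mem h).elim hf hg, g • j + f • i, ?_, ?_⟩
    · refine J.add_mem ?_ ?_
      · rw [Algebra.smul_def]; exact J.mul_mem_left _ hj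
      · rw [Algebra.smul_def]; exact J.mul_mem_left _ hi
    · rw [map_add, toFib_smul, toFib_smul, ← h2, ← h3, map_mul, smul_add, smul_smul, smul_smul,
        mul_comm (sc A p.asIdeal g)]
  · rintro l u _ ⟨f, hf, j, hj, h2⟩
    obtain ⟨g, hg, r, h3⟩ := toFib_surj p.asIdeal l
    refine ⟨g * f, fun h => (p.isPrime.mem_or_mem h).elim hg hf, r * j, J.mul_mem_left _ hj, ?_⟩
    rw [map_mul, map_mul, smul_eq_mul, ← h3, ← h2, smul_mul_smul_comm]

theorem In.denom {p : PrimeSpectrum A} {J : Ideal R} {x : R} (h : In p J x) :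
    ∃ f : A, f ∉ p.asIdeal ∧ ∃ j ∈ J,
      toFib A R p.asIdeal (f • x - j) ∈ Ring.jacobson (Fib A R p.asIdeal) := by
  obtain ⟨u, hu, v, hv, huv⟩ := mem_sup.1 h
  obtain ⟨f, hf, j, hj, h2⟩ := span_denom hu
  refine ⟨f, hf, j, hj, ?_⟩
  rw [map_sub, toFib_smul, ← huv, smul_add, h2, add_sub_cancel_left]
  exact F_smul hv

theorem In.of_denom {p : PrimeSpectrum A} {J : Ideal R} {x : R} {f : A} (hf : f ∉ p.asIdeal)
    {j : R} (hj : j ∈ J)
    (h : toFib A R p.asIdeal (f • x - j) ∈ Ring.jacobson (Fib A R p.asIdeal)) : In p J x := by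
  refine F_of_smul hf ?_
  have h1 : sc A p.asIdeal f • toFib A R p.asIdeal x =
      toFib A R p.asIdeal (f • x - j) + toFib A R p.asIdeal j := by
    rw [map_sub, sub_add_cancel, toFib_smul]
  rw [h1]
  exact add_mem (mem_sup_right h) (toFib_mem_F hj)

/-- the elements which are in the radical at `p` -/
noncomputable def Nil (A R : Type) [CommRing A] [Ring R] [Algebra A R] (p : PrimeSpectrum A) :
    Submodule A R where
  carrier := {x | toFib A R p.asIdeal x ∈ Ring.jacobson (Fib A R p.asIdeal)}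
  add_mem' := fun {x y} hx hy => by
    show toFib A R p.asIdeal (x + y) ∈ Ring.jacobson (Fib A R p.asIdeal)
    rw [map_add]
    exact add_mem hx hy
  zero_mem' := by
    show toFib A R p.asIdeal 0 ∈ Ring.jacobson (Fib A R p.asIdeal)
    rw [map_zero]
    exact zero_mem _
  smul_mem' := fun f x hx => by
    show toFib A R p.asIdeal (f • x) ∈ Ring.jacobson (Fib A R p.asIdeal)
    rw [toFib_smul]
    exact F_smul hx

theorem mem_Nil {p : PrimeSpectrum A} {x : R} :
    x ∈ Nil A R p ↔ toFib A R p.asIdeal x ∈ Ring.jacobson (Fib A R p.asIdeal) := Iff.rfl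

theorem Nil_left {p : PrimeSpectrum A} {x : R} (h : x ∈ Nil A R p) (r : R) :
    r * x ∈ Nil A R p := by
  rw [mem_Nil, map_mul]
  exact Ideal.mul_mem_left _ _ h

theorem Nil_pow (p : PrimeSpectrum A) (m : ℕ) :
    ∀ x ∈ Nil A R p ^ (m + 1),
      toFib A R p.asIdeal x ∈ Ring.jacobson (Fib A R p.asIdeal) ^ (m + 1) := by
  induction m with
  | zero =>
    intro x hx
    rw [zero_add, pow_one] at hx
    rw [zero_add, Submodule.pow_one]
    exact hx
  | succ m ih =>
    intro x hx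
    rw [pow_succ] at hx
    rw [Submodule.pow_succ]
    refine Submodule.mul_induction_on hx ?_ ?_
    · intro u hu v hv
      rw [map_mul]
      exact Ideal.mul_mem_mul (ih u hu) hv
    · intro u v hu hv
      rw [map_add]
      exact add_mem hu hv

/-- a power of the elements in the radical vanishes -/
theorem exists_pow [Module.Finite A R] (p : PrimeSpectrum A) :
    ∃ m : ℕ, ∀ x ∈ Nil A R p ^ (m + 1), toFib A R p.asIdeal x = 0 := by
  have hA : IsArtinianRing (Fib A R p.asIdeal) := instArtFib p.asIdeal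
  have hS : IsSemiprimaryRing (Fib A R p.asIdeal) := inferInstance
  obtain ⟨m, hm⟩ := hS.isNilpotent
  refine ⟨m, fun x hx => ?_⟩
  have h1 := Nil_pow p m x hx
  rw [Submodule.pow_succ, hm, zero_mul] at h1
  simpa using h1

theorem jac_of_nil {L : Type} [Ring L] {x : L} (h : ∀ y : L, IsNilpotent (y * x)) :
    x ∈ Ring.jacobson L := by
  rw [← Ideal.jacobson_bot, Ideal.mem_jacobson_iff]
  intro y
  obtain ⟨u, hu⟩ := (h y).isUnit_one_add
  refine ⟨((u⁻¹ : Lˣ) : L), ?_⟩
  have h1 : ((u⁻¹ : Lˣ) : L) * y * x + ((u⁻¹ : Lˣ) : L) - 1 = ((u⁻¹ : Lˣ) : L) * (u : L) - 1 := by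
    rw [hu, mul_add, mul_one, mul_assoc]
    abel
  rw [h1, Units.inv_mul, sub_self]
  exact zero_mem _

end Vale.Agent.P246.H672
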