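import Mathlib

/-! P246 (helper672): semisimple rings have stable range one, relative to a left ideal. -/

namespace Vale.Agent.P246.H672

open Submodule

section

variable {L : Type} [Ring L] [IsSemisimpleRing L] [IsArtinianRing L] [IsNoetherianRing L]

/-- In a semisimple ring, `a` is in `J + L (y + t a)` for some `t`. -/
theorem ss_step (J : Ideal L) (y a : L) : ∃ t : L, a ∈ J ⊔ Ideal.span {y + t * a} := by
  classical
  -- a maximal ideal of this form
  obtain ⟨P, ⟨t0, hP⟩, hmax⟩ := set_has_maximal_iff_noetherian.2 (inferInstance : IsNoetherian L L)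
    {P : Ideal L | ∃ t : L, P = J ⊔ Ideal.span {y + t * a}} ⟨_, 0, rfl⟩
  refine ⟨t0, ?_⟩
  rw [← hP]
  by_contra haP
  set y' : L := y + t0 * a with hy'
  have hJP : J ≤ P := by rw [hP]; exact le_sup_left
  have hy'P : y' ∈ P := by
    rw [hP]; exact mem_sup_right (Ideal.subset_span rfl)
  let f : L →ₗ[L] (L ⧸ J) := (mkQ J).comp (LinearMap.toSpanSingleton L L y')
  let g : L →ₗ[L] (L ⧸ J) := (mkQ J).comp (LinearMap.toSpanSingleton L L a)
  set K : Ideal L := LinearMap.ker f with hK
  have hKmem : ∀ x, x ∈ K ↔ x * y' ∈ J := by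
    intro x
    rw [hK, LinearMap.mem_ker]
    show (mkQ J) (x • y') = 0 ↔ _
    rw [mkQ_apply, Quotient.mk_eq_zero, smul_eq_mul]
  set I : Ideal L := Submodule.comap (LinearMap.toSpanSingleton L L a) P with hI
  have hImem : ∀ x, x ∈ I ↔ x * a ∈ P := fun x => Iff.rfl
  -- a simple left ideal off `I`
  obtain ⟨I', hI'⟩ := exists_isCompl I
  have hI'ne : I' ≠ ⊥ := by
    rintro rfl
    have h1 : I = ⊤ := by simpa using hI'.sup_eq_top
    have h2 : (1 : L) ∈ I := by rw [h1]; exact mem_top
    rw [hImem, one_mul] at h2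
    exact haP h2
  obtain ⟨S, hS, hSI'⟩ := (IsAtomic.eq_bot_or_exists_atom_le I').resolve_left hI'ne
  have hSs : IsSimpleModule L S := isSimpleModule_iff_isAtom.2 hS
  -- no homomorphism from `K` to `S`
  obtain ⟨K', hK'⟩ := exists_isCompl K
  have hhom : ∀ θ : K →ₗ[L] S, θ = 0 := by
    intro θ
    let Θ : L →ₗ[L] L := (S.subtype.comp θ).comp (Submodule.projectionOnto K K' hK')
    set t : L := Θ 1 with ht
    have hΘ : ∀ x, Θ x = x * t := by
      intro x
      have := Θ.map_smul x 1
      rwa [smul_eq_mul, mul_one, smul_eq_mul] at this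
    have hk' : ∀ x ∈ K', x * t = 0 := by
      intro x hx
      rw [← hΘ]
      show S.subtype (θ (Submodule.projectionOnto K K' hK' x)) = 0
      rw [Submodule.projectionOnto_apply_right hK' ⟨x, hx⟩, map_zero, map_zero]
    have hk : ∀ x : K, (x : L) * t = θ x := by
      intro x
      rw [← hΘ]
      show S.subtype (θ (Submodule.projectionOnto K K' hK' x)) = θ x
      rw [Submodule.projectionOnto_apply_left hK' x]
      rfl
    have hle : P ≤ J ⊔ Ideal.span {y' + t * a} := by
      rw [hP]
      refine sup_le le_sup_left ?_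
      rw [Ideal.span_le, Set.singleton_subset_iff]
      have h1 : (1 : L) ∈ K ⊔ K' := by rw [hK'.sup_eq_top]; exact mem_top
      obtain ⟨k, hk1, k', hk2, hkk⟩ := mem_sup.1 h1
      have h2 : y' = k * y' + k' * (y' + t * a) := by
        rw [mul_add k' y' (t * a), ← mul_assoc k' t a, hk' k' hk2, zero_mul, add_zero, ← add_mul,
          hkk, one_mul]
      have h3 : k * y' + k' * (y' + t * a) ∈ J ⊔ Ideal.span {y' + t * a} :=
        add_mem (mem_sup_left ((hKmem k).1 hk1))
          (mem_sup_right (Ideal.mul_mem_left _ _ (Ideal.subset_span rfl)))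
      rwa [← h2] at h3
    have heq : J ⊔ Ideal.span {y' + t * a} = P := by
      by_contra hne
      refine hmax (J ⊔ Ideal.span {y' + t * a}) ⟨t0 + t, ?_⟩ (lt_of_le_of_ne hle (Ne.symm hne))
      rw [hy', add_mul, add_assoc]
    have hta : t * a ∈ P := by
      have h1 : y' + t * a ∈ P := by
        rw [← heq]; exact mem_sup_right (Ideal.subset_span rfl)
      have := sub_mem h1 hy'P
      rwa [add_sub_cancel_left] at this
    ext x
    have h1 : ((θ x : S) : L) ∈ I := by
      rw [hImem, ← hk x, mul_assoc]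
      exact Ideal.mul_mem_left _ _ hta
    have h2 : ((θ x : S) : L) ∈ I ⊓ I' := ⟨h1, hSI' (θ x).2⟩
    rw [hI'.inf_eq_bot, mem_bot] at h2
    simpa using h2
  -- isotypic components
  set H : Ideal L := isotypicComponent L L S with hH
  have hSH : S ≤ H := S.le_isotypicComponent
  have hKH : K ⊓ H = ⊥ := by
    by_contra hne
    obtain ⟨T, hT, hTle⟩ := (IsAtomic.eq_bot_or_exists_atom_le (K ⊓ H)).resolve_left hne
    have hTs : IsSimpleModule L T := isSimpleModule_iff_isAtom.2 hT
    have hTK : T ≤ K := hTle.trans inf_le_left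
    have hTH : T ≤ H := hTle.trans inf_le_right
    have e : Nonempty (T ≃ₗ[L] S) := by
      have h1 := IsIsotypicOfType.isotypicComponent (R := L) (M := L) (S := S)
      have h2 := isIsotypicOfType_submodule_iff.1 h1 T hTH
      exact h2
    obtain ⟨e⟩ := e
    obtain ⟨T', hT'⟩ := exists_isCompl (Submodule.comap K.subtype T)
    have hθ := hhom (e.toLinearMap.comp
      ((Submodule.comapSubtypeEquivOfLe hTK).toLinearMap.comp
        (Submodule.projectionOnto _ _ hT')))
    obtain ⟨x, hx, hx0⟩ := (Submodule.ne_bot_iff T).1 hT.1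
    have h3 := LinearMap.congr_fun hθ ⟨x, hTK hx⟩
    have h4 : Submodule.projectionOnto _ _ hT' (⟨x, hTK hx⟩ : K) =
        (⟨⟨x, hTK hx⟩, hx⟩ : Submodule.comap K.subtype T) :=
      Submodule.projectionOnto_apply_left hT' ⟨⟨x, hTK hx⟩, hx⟩
    simp only [LinearMap.comp_apply, LinearEquiv.coe_coe, LinearMap.zero_apply] at h3
    rw [h4] at h3
    have h5 : Submodule.comapSubtypeEquivOfLe hTK ⟨⟨x, hTK hx⟩, hx⟩ = 0 := e.injective (by
      rw [h3, map_zero])
    have h6 := congrArg Subtype.val h5
    exact hx0 h6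
  -- right multiplications preserve `H`
  have hHy : ∀ x ∈ H, ∀ r : L, x * r ∈ H := fun x hx r =>
    LinearMap.le_comap_isotypicComponent (S := S) (LinearMap.toSpanSingleton L L r) hx
  have hfx : ∀ x, f x = mkQ J (x * y') := fun x => rfl
  set M1 : Submodule L (L ⧸ J) := Submodule.map (mkQ J) H with hM1
  let fH : H →ₗ[L] M1 := (f.comp H.subtype).codRestrict M1 fun x =>
    ⟨x * y', hHy x x.2 y', rfl⟩
  let pH : H →ₗ[L] M1 := ((mkQ J).comp H.subtype).codRestrict M1 fun x => ⟨x, x.2, rfl⟩
  have hpH : Function.Surjective pH := by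
    rintro ⟨_, x, hx, rfl⟩
    exact ⟨⟨x, hx⟩, rfl⟩
  have hfinj : Function.Injective fH := by
    rw [injective_iff_map_eq_zero]
    intro x hx
    have h1 : f (x : L) = 0 := congrArg Subtype.val hx
    have h2 : (x : L) ∈ K ⊓ H := ⟨h1, x.2⟩
    rw [hKH, mem_bot] at h2
    exact Subtype.ext h2
  obtain ⟨s, hs⟩ := IsSemisimpleModule.lifting_property pH hpH (LinearMap.id : M1 →ₗ[L] M1)
  have hsinj : Function.Injective s := fun u v huv => by
    have h1 := LinearMap.congr_fun hs u
    have h2 := LinearMap.congr_fun hs v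
    simp only [LinearMap.comp_apply, LinearMap.id_apply] at h1 h2
    rw [← h1, ← h2, huv]
  have hsurj : Function.Surjective (s.comp fH) :=
    IsArtinian.surjective_of_injective_endomorphism _ (hsinj.comp hfinj)
  have hfsurj : Function.Surjective fH := by
    intro m
    obtain ⟨x, hx⟩ := hsurj (s m)
    exact ⟨x, hsinj hx⟩
  -- `S a` is contained in `P`
  have hSI : S ≤ I := by
    intro x hx
    rw [hImem]
    obtain ⟨z, hz⟩ := hfsurj ⟨mkQ J (x * a), ⟨x * a, hHy x (hSH hx) a, rfl⟩⟩
    have h1 : mkQ J ((z : L) * y') = mkQ J (x * a) := congrArg Subtype.val hz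
    have h2 : (z : L) * y' - x * a ∈ J := by
      rw [← Submodule.Quotient.eq]
      exact h1
    have h3 : x * a = (z : L) * y' - ((z : L) * y' - x * a) := by abel
    rw [h3]
    exact sub_mem (Ideal.mul_mem_left _ _ hy'P) (hJP h2)
  refine hS.1 (le_bot_iff.1 ?_)
  rw [← hI'.inf_eq_bot]
  exact le_inf hSI hSI'

end

end Vale.Agent.P246.H672
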